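import Mathlib

/-! # P205: horizontal curves on the three-sphere with prescribed speed and holonomy -/

open scoped ContDiff
open MeasureTheory intervalIntegral

namespace Vale.Agent.P205

/-- primitives of smooth functions -/
theorem prim_spec {h : ℝ → ℝ} (hh : ContDiff ℝ ∞ h) :
    ContDiff ℝ ∞ (fun t => ∫ x in (0 : ℝ)..t, h x) ∧
      ∀ t, HasDerivAt (fun t => ∫ x in (0 : ℝ)..t, h x) (h t) t := by
  have hd : ∀ t, HasDerivAt (fun t => ∫ x in (0 : ℝ)..t, h x) (h t) t := fun t =>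
    intervalIntegral.integral_hasDerivAt_right (hh.continuous.intervalIntegrable 0 t)
      (hh.continuous.stronglyMeasurableAtFilter _ _) hh.continuous.continuousAt
  refine ⟨?_, hd⟩
  rw [contDiff_infty_iff_deriv]
  refine ⟨fun t => (hd t).differentiableAt, ?_⟩
  have : deriv (fun t => ∫ x in (0 : ℝ)..t, h x) = h := funext fun t => (hd t).deriv
  rw [this]
  exact hh

theorem prim_per {h : ℝ → ℝ} (hh : Continuous h) (hp : ∀ t, h (t + 1) = h t) (t : ℝ) :
    ∫ x in (0 : ℝ)..(t + 1), h x = (∫ x in (0 : ℝ)..t, h x) + ∫ x in (0 : ℝ)..1, h x := by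
  have h1 : Function.Periodic h 1 := hp
  have h2 := h1.intervalIntegral_add_eq t 0
  rw [zero_add] at h2
  rw [← h2, intervalIntegral.integral_add_adjacent_intervals (hh.intervalIntegrable _ _)
    (hh.intervalIntegrable _ _)]

/-- a continuous `1`-periodic function attains its minimum -/
theorem per_min {f : ℝ → ℝ} (hf : Continuous f) (hp : ∀ t, f (t + 1) = f t) :
    ∃ t₀, ∀ t, f t₀ ≤ f t := by
  obtain ⟨t₀, _, h⟩ := isCompact_Icc.exists_isMinOn (Set.nonempty_Icc.2 (zero_le_one' ℝ))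
    hf.continuousOn
  refine ⟨t₀, fun t => ?_⟩
  have hper : Function.Periodic f 1 := hp
  obtain ⟨y, hy, he⟩ := hper.exists_mem_Ico₀ one_pos t
  rw [he]
  exact h (Set.Ico_subset_Icc_self hy)

theorem per_bdd {f : ℝ → ℝ} (hf : Continuous f) (hp : ∀ t, f (t + 1) = f t) :
    ∃ M : ℝ, 0 ≤ M ∧ ∀ t, |f t| ≤ M := by
  obtain ⟨t₀, h⟩ := per_min (f := fun t => -|f t|) (hf.abs.neg) (fun t => by
    show -|f (t + 1)| = -|f t|
    rw [hp])
  exact ⟨|f t₀|, abs_nonneg _, fun t => by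
    have := h t
    show |f t| ≤ |f t₀|
    linarith⟩

theorem deriv_per {f : ℝ → ℝ} (hp : ∀ t, f (t + 1) = f t) (t : ℝ) :
    deriv f (t + 1) = deriv f t := by
  rw [← deriv_comp_add_const]
  congr 1
  funext x
  exact hp x

/-- the glue function of `sin 2πt` -/
noncomputable def gp (t : ℝ) : ℝ := expNegInvGlue (Real.sin (2 * Real.pi * t))

/-- the glue function of `- sin 2πt` -/
noncomputable def gm (t : ℝ) : ℝ := expNegInvGlue (-Real.sin (2 * Real.pi * t))

/-- the antisymmetric bump in `[0,1/2]` -/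
noncomputable def fs (t : ℝ) : ℝ := gp t * Real.sin (4 * Real.pi * t)

theorem sin_per (t : ℝ) : Real.sin (2 * Real.pi * (t + 1)) = Real.sin (2 * Real.pi * t) := by
  rw [mul_add, mul_one, Real.sin_add_two_pi]

theorem gp_smooth : ContDiff ℝ ∞ gp :=
  expNegInvGlue.contDiff.comp (Real.contDiff_sin.comp (contDiff_const.mul contDiff_id))

theorem gm_smooth : ContDiff ℝ ∞ gm :=
  expNegInvGlue.contDiff.comp (Real.contDiff_sin.comp (contDiff_const.mul contDiff_id)).neg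

theorem fs_smooth : ContDiff ℝ ∞ fs :=
  gp_smooth.mul (Real.contDiff_sin.comp (contDiff_const.mul contDiff_id))

theorem gp_per (t : ℝ) : gp (t + 1) = gp t := by
  unfold gp
  rw [sin_per]

theorem gm_per (t : ℝ) : gm (t + 1) = gm t := by
  unfold gm
  rw [sin_per]

theorem fs_per (t : ℝ) : fs (t + 1) = fs t := by
  unfold fs
  rw [gp_per]
  have : 4 * Real.pi * (t + 1) = 4 * Real.pi * t + 2 * Real.pi + 2 * Real.pi := by ring
  rw [this, Real.sin_add_two_pi, Real.sin_add_two_pi]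

theorem gp_nonneg (t : ℝ) : 0 ≤ gp t := expNegInvGlue.nonneg _

theorem gm_nonneg (t : ℝ) : 0 ≤ gm t := expNegInvGlue.nonneg _

theorem sin_nonneg_half {t : ℝ} (h0 : 0 ≤ t) (h1 : t ≤ 1 / 2) :
    0 ≤ Real.sin (2 * Real.pi * t) := by
  apply Real.sin_nonneg_of_nonneg_of_le_pi
  · positivity
  · nlinarith [Real.pi_pos]

theorem sin_nonpos_half {t : ℝ} (h0 : 1 / 2 ≤ t) (h1 : t ≤ 1) :
    Real.sin (2 * Real.pi * t) ≤ 0 := by
  have h2 := sin_nonneg_half (t := t - 1 / 2) (by linarith) (by linarith)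
  have h3 : 2 * Real.pi * t = 2 * Real.pi * (t - 1 / 2) + Real.pi := by ring
  rw [h3, Real.sin_add_pi]
  linarith

theorem gm_zero {t : ℝ} (h0 : 0 ≤ t) (h1 : t ≤ 1 / 2) : gm t = 0 :=
  expNegInvGlue.zero_of_nonpos (by linarith [sin_nonneg_half h0 h1])

theorem gp_zero {t : ℝ} (h0 : 1 / 2 ≤ t) (h1 : t ≤ 1) : gp t = 0 :=
  expNegInvGlue.zero_of_nonpos (sin_nonpos_half h0 h1)

theorem deriv_zero_of_min {f : ℝ → ℝ} (h0 : ∀ t, 0 ≤ f t) {t : ℝ} (ht : f t = 0) :
    deriv f t = 0 := by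
  have : IsLocalMin f t := Filter.Eventually.of_forall fun s => by rw [ht]; exact h0 s
  exact this.deriv_eq_zero

theorem fs_deriv_zero {t : ℝ} (h0 : 1 / 2 ≤ t) (h1 : t ≤ 1) : deriv fs t = 0 := by
  have hg : HasDerivAt gp 0 t := by
    have := ((gp_smooth.differentiable (by simp)) t).hasDerivAt
    rwa [deriv_zero_of_min gp_nonneg (gp_zero h0 h1)] at this
  have hs : DifferentiableAt ℝ (fun t : ℝ => Real.sin (4 * Real.pi * t)) t := by fun_prop
  have h := (hg.mul hs.hasDerivAt).deriv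
  rw [gp_zero h0 h1, zero_mul, zero_mul, add_zero] at h
  exact h

theorem fs_zero {t : ℝ} (h0 : 1 / 2 ≤ t) (h1 : t ≤ 1) : fs t = 0 := by
  unfold fs
  rw [gp_zero h0 h1, zero_mul]

theorem fs_anti (t : ℝ) : fs (1 / 2 - t) = -fs t := by
  unfold fs gp
  have e1 : 2 * Real.pi * (1 / 2 - t) = Real.pi - 2 * Real.pi * t := by ring
  have e2 : 4 * Real.pi * (1 / 2 - t) = 2 * Real.pi - 4 * Real.pi * t := by ring
  rw [e1, e2, Real.sin_pi_sub, Real.sin_two_pi_sub]
  ring

theorem fs_deriv_symm (t : ℝ) : deriv fs (1 / 2 - t) = deriv fs t := by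
  have h1 : (fun x => fs (1 / 2 - x)) = fun x => -fs x := funext fs_anti
  have h2 := deriv_comp_const_sub fs (1 / 2) t
  rw [h1] at h2
  have h3 : deriv (fun x => -fs x) t = -deriv fs t := deriv.fun_neg
  rw [h3] at h2
  linarith

/-- the derivative of the angle -/
noncomputable def wv (z z' : ℝ) : ℝ := z' / (2 * (1 + z ^ 2))

/-- the remaining speed -/
noncomputable def Nv (L z z' : ℝ) : ℝ := Real.sqrt (L ^ 2 - wv z z' ^ 2)

theorem wv_le (z z' M : ℝ) (h : |z'| ≤ M) : |wv z z'| ≤ M / 2 := by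
  unfold wv
  have h1 : (1 : ℝ) ≤ 1 + z ^ 2 := by nlinarith [sq_nonneg z]
  rw [abs_div, abs_of_pos (show 0 < 2 * (1 + z ^ 2) by linarith)]
  have hM : 0 ≤ M := (abs_nonneg _).trans h
  calc |z'| / (2 * (1 + z ^ 2)) ≤ M / (2 * (1 + z ^ 2)) :=
        div_le_div_of_nonneg_right h (by linarith)
    _ ≤ M / 2 := div_le_div_of_nonneg_left hM (by norm_num) (by linarith)

theorem rad_pos {L M z z' : ℝ} (hL : M ^ 2 + 1 ≤ L) (h : |z'| ≤ M) :
    (L - 1) ^ 2 ≤ L ^ 2 - wv z z' ^ 2 ∧ 0 < L ^ 2 - wv z z' ^ 2 ∧ 0 ≤ L - 1 := by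
  have h1 := wv_le z z' M h
  have h2 : wv z z' ^ 2 ≤ (M / 2) ^ 2 := by
    rw [← sq_abs (wv z z')]
    exact pow_le_pow_left₀ (abs_nonneg _) h1 2
  have h3 := sq_nonneg M
  refine ⟨by nlinarith, by nlinarith, by nlinarith⟩

theorem Nv_ge {L M z z' : ℝ} (hL : M ^ 2 + 1 ≤ L) (h : |z'| ≤ M) : L - 1 ≤ Nv L z z' := by
  obtain ⟨h1, h2, h3⟩ := rad_pos (z := z) hL h
  unfold Nv
  exact Real.le_sqrt_of_sq_le h1

theorem Nv_cont {f g : ℝ × ℝ → ℝ} (hf : Continuous f) (hg : Continuous g) (L : ℝ) :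
    Continuous (fun x => Nv L (f x) (g x)) := by
  unfold Nv wv
  refine Real.continuous_sqrt.comp (continuous_const.sub ((hg.div
    (continuous_const.mul (continuous_const.add (hf.pow 2))) fun x => ?_).pow 2))
  show 2 * (1 + f x ^ 2) ≠ 0
  positivity

theorem gm_int_pos : 0 < ∫ t in (1 / 2 : ℝ)..1, 2 * gm t := by
  have hgc : Continuous gm := gm_smooth.continuous
  refine intervalIntegral.intervalIntegral_pos_of_pos_on
    ((continuous_const.mul hgc).intervalIntegrable _ _) ?_ (by norm_num)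
  intro t ht
  have h1 : 0 < -Real.sin (2 * Real.pi * t) := by
    have h2 : 0 < Real.sin (2 * Real.pi * (t - 1 / 2)) := by
      apply Real.sin_pos_of_pos_of_lt_pi
      · have := ht.1
        have := Real.pi_pos
        apply mul_pos (by linarith) (by linarith)
      · have := ht.2
        nlinarith [Real.pi_pos]
    have h3 : 2 * Real.pi * t = 2 * Real.pi * (t - 1 / 2) + Real.pi := by ring
    rw [h3, Real.sin_add_pi]
    linarith
  have h4 : 0 < gm t := expNegInvGlue.pos_of_pos h1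
  linarith

theorem fs_sq_cont : Continuous (fun t => 2 * Real.sqrt (1 + (fs t) ^ 2)) := by
  have hfc : Continuous fs := fs_smooth.continuous
  exact continuous_const.mul (Real.continuous_sqrt.comp (continuous_const.add (hfc.pow 2)))

theorem fs_ne {t : ℝ} (h0 : 0 < t) (h1 : t < 1 / 4) : fs t ≠ 0 := by
  unfold fs gp
  apply mul_ne_zero
  · apply ne_of_gt
    apply expNegInvGlue.pos_of_pos
    apply Real.sin_pos_of_pos_of_lt_pi
    · positivity
    · nlinarith [Real.pi_pos]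
  · apply ne_of_gt
    apply Real.sin_pos_of_pos_of_lt_pi
    · positivity
    · nlinarith [Real.pi_pos]

theorem fs_int_gt : 1 < ∫ t in (0 : ℝ)..(1 / 2), 2 * Real.sqrt (1 + (fs t) ^ 2) := by
  have hc := fs_sq_cont
  have hc2 : Continuous (fun t => 2 * Real.sqrt (1 + (fs t) ^ 2) - 2) := hc.sub continuous_const
  have h1 : ∫ t in (0 : ℝ)..(1 / 2), (2 * Real.sqrt (1 + (fs t) ^ 2) - 2) =
      (∫ t in (0 : ℝ)..(1 / 2), 2 * Real.sqrt (1 + (fs t) ^ 2)) - 1 := by
    rw [intervalIntegral.integral_sub (hc.intervalIntegrable _ _)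
      (continuous_const.intervalIntegrable _ _), intervalIntegral.integral_const]
    norm_num
  have h2 : 0 < ∫ t in (0 : ℝ)..(1 / 4), (2 * Real.sqrt (1 + (fs t) ^ 2) - 2) := by
    refine intervalIntegral.intervalIntegral_pos_of_pos_on
      (hc2.intervalIntegrable _ _) ?_ (by norm_num)
    intro t ht
    have h3 : fs t ≠ 0 := fs_ne ht.1 ht.2
    have h4 : 0 < fs t ^ 2 := by positivity
    have h5 : 1 < Real.sqrt (1 + fs t ^ 2) := by
      rw [Real.lt_sqrt (by norm_num)]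
      linarith
    linarith
  have h3 : 0 ≤ ∫ t in (1 / 4 : ℝ)..(1 / 2), (2 * Real.sqrt (1 + (fs t) ^ 2) - 2) := by
    refine intervalIntegral.integral_nonneg (by norm_num) fun t _ => ?_
    have h5 : 1 ≤ Real.sqrt (1 + fs t ^ 2) := by
      rw [Real.one_le_sqrt]
      nlinarith [sq_nonneg (fs t)]
    linarith
  have h4 := intervalIntegral.integral_add_adjacent_intervals
    (hc2.intervalIntegrable (μ := volume) 0 (1 / 4)) (hc2.intervalIntegrable (μ := volume) (1 / 4) (1 / 2))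
  linarith

theorem PI_cont (L : ℝ) : Continuous (fun x : ℝ × ℝ =>
    2 * (x.1 * gm x.2) * Nv L (x.1 * gm x.2) (x.1 * deriv gm x.2)) := by
  have hgc : Continuous gm := gm_smooth.continuous
  have hgm' : Continuous (deriv gm) := gm_smooth.continuous_deriv (by simp)
  have h1 : Continuous (fun x : ℝ × ℝ => x.1 * gm x.2) :=
    continuous_fst.mul (hgc.comp continuous_snd)
  have h2 : Continuous (fun x : ℝ × ℝ => x.1 * deriv gm x.2) :=
    continuous_fst.mul (hgm'.comp continuous_snd)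
  exact (continuous_const.mul h1).mul (Nv_cont h1 h2 L)

theorem QI_cont {f : ℝ → ℝ} (hf : ContDiff ℝ ∞ f) (L : ℝ) : Continuous (fun x : ℝ × ℝ =>
    2 * Real.sqrt (1 + (x.1 * f x.2) ^ 2) * Nv L (x.1 * f x.2) (x.1 * deriv f x.2)) := by
  have hgc : Continuous f := hf.continuous
  have hgm' : Continuous (deriv f) := hf.continuous_deriv (by simp)
  have h1 : Continuous (fun x : ℝ × ℝ => x.1 * f x.2) :=
    continuous_fst.mul (hgc.comp continuous_snd)
  have h2 : Continuous (fun x : ℝ × ℝ => x.1 * deriv f x.2) :=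
    continuous_fst.mul (hgm'.comp continuous_snd)
  exact (continuous_const.mul (Real.continuous_sqrt.comp
      (continuous_const.add (h1.pow 2)))).mul (Nv_cont h1 h2 L)

/-- the first integral -/
noncomputable def PI (L a : ℝ) : ℝ := ∫ t in (1 / 2 : ℝ)..1,
  2 * (a * gm t) * Nv L (a * gm t) (a * deriv gm t)

/-- the second integral -/
noncomputable def QI (L b : ℝ) : ℝ := ∫ t in (0 : ℝ)..(1 / 2),
  2 * Real.sqrt (1 + (b * fs t) ^ 2) * Nv L (b * fs t) (b * deriv fs t)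

/-- the third integral -/
noncomputable def QJ (L a : ℝ) : ℝ := ∫ t in (1 / 2 : ℝ)..1,
  2 * Real.sqrt (1 + (a * gm t) ^ 2) * Nv L (a * gm t) (a * deriv gm t)

theorem contP (L : ℝ) : Continuous (PI L) :=
  intervalIntegral.continuous_parametric_intervalIntegral_of_continuous' (PI_cont L) _ _

theorem contQ (L : ℝ) : Continuous (QI L) :=
  intervalIntegral.continuous_parametric_intervalIntegral_of_continuous' (QI_cont fs_smooth L) _ _

theorem PI_zero (L : ℝ) : PI L 0 = 0 := by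
  simp [PI]

theorem QI_zero {L : ℝ} (hL : 0 ≤ L) : QI L 0 = L := by
  unfold QI
  have h1 : ∀ t : ℝ, 2 * Real.sqrt (1 + ((0 : ℝ) * fs t) ^ 2) *
    Nv L (0 * fs t) (0 * deriv fs t) = 2 * L := by
    intro t
    unfold Nv wv
    simp only [zero_mul, ne_eq, OfNat.ofNat_ne_zero, not_false_eq_true, zero_pow, add_zero,
      Real.sqrt_one, mul_one, zero_div, sub_zero]
    rw [Real.sqrt_sq hL]
  simp only [h1]
  rw [intervalIntegral.integral_const, smul_eq_mul]
  ring

theorem PI_one {L M : ℝ} (hM : ∀ t, |deriv gm t| ≤ M) (hL : M ^ 2 + 1 ≤ L) :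
    (L - 1) * (∫ t in (1 / 2 : ℝ)..1, 2 * gm t) ≤ PI L 1 := by
  unfold PI
  rw [← intervalIntegral.integral_const_mul]
  have hgc : Continuous gm := gm_smooth.continuous
  refine intervalIntegral.integral_mono_on (by norm_num)
    ((continuous_const.mul (continuous_const.mul hgc)).intervalIntegrable _ _)
    (((PI_cont L).comp (Continuous.prodMk_right (1 : ℝ))).intervalIntegrable _ _) fun t _ => ?_
  show (L - 1) * (2 * gm t) ≤ 2 * (1 * gm t) * Nv L (1 * gm t) (1 * deriv gm t)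
  have h2 : L - 1 ≤ Nv L (1 * gm t) (1 * deriv gm t) :=
    Nv_ge hL (by rw [one_mul]; exact hM t)
  have h3 := gm_nonneg t
  rw [one_mul, one_mul] at *
  nlinarith

theorem QI_one {L M : ℝ} (hM : ∀ t, |deriv fs t| ≤ M) (hL : M ^ 2 + 1 ≤ L) :
    (L - 1) * (∫ t in (0 : ℝ)..(1 / 2), 2 * Real.sqrt (1 + (fs t) ^ 2)) ≤ QI L 1 := by
  unfold QI
  rw [← intervalIntegral.integral_const_mul]
  refine intervalIntegral.integral_mono_on (by norm_num)
    ((continuous_const.mul fs_sq_cont).intervalIntegrable _ _)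
    (((QI_cont fs_smooth L).comp (Continuous.prodMk_right (1 : ℝ))).intervalIntegrable _ _)
    fun t _ => ?_
  show (L - 1) * (2 * Real.sqrt (1 + (fs t) ^ 2)) ≤
    2 * Real.sqrt (1 + (1 * fs t) ^ 2) * Nv L (1 * fs t) (1 * deriv fs t)
  have h2 : L - 1 ≤ Nv L (1 * fs t) (1 * deriv fs t) :=
    Nv_ge hL (by rw [one_mul]; exact hM t)
  rw [one_mul, one_mul] at *
  have h3 := Real.sqrt_nonneg (1 + fs t ^ 2)
  nlinarith

theorem exists_M : ∃ M : ℝ, 0 ≤ M ∧ (∀ t, |deriv fs t| ≤ M) ∧ (∀ t, |deriv gm t| ≤ M) ∧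
    ∀ a b : ℝ, 0 ≤ a → a ≤ 1 → 0 ≤ b → b ≤ 1 → ∀ t, |b * deriv fs t + a * deriv gm t| ≤ M := by
  have hfs' : Continuous (deriv fs) := fs_smooth.continuous_deriv (by simp)
  have hgm' : Continuous (deriv gm) := gm_smooth.continuous_deriv (by simp)
  obtain ⟨M₁, hM₁, hb₁⟩ := per_bdd hfs' (deriv_per fs_per)
  obtain ⟨M₂, hM₂, hb₂⟩ := per_bdd hgm' (deriv_per gm_per)
  refine ⟨M₁ + M₂, by linarith, fun t => by linarith [hb₁ t], fun t => by linarith [hb₂ t], ?_⟩
  intro a b ha0 ha1 hb0 hb1 t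
  refine (abs_add_le _ _).trans ?_
  rw [abs_mul, abs_mul, abs_of_nonneg ha0, abs_of_nonneg hb0]
  have h1 := hb₁ t
  have h2 := hb₂ t
  have h3 := abs_nonneg (deriv fs t)
  have h4 := abs_nonneg (deriv gm t)
  nlinarith

theorem exists_j (θ : ℝ) : ∃ j : ℤ, 0 ≤ 2 * θ - 2 * Real.pi * j ∧
    2 * θ - 2 * Real.pi * j ≤ 2 * Real.pi := by
  have hpi := Real.pi_pos
  refine ⟨⌊θ / Real.pi⌋, ?_, ?_⟩
  · have := Int.floor_le (θ / Real.pi)
    rw [le_div_iff₀ hpi] at this
    linarith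
  · have := Int.lt_floor_add_one (θ / Real.pi)
    rw [div_lt_iff₀ hpi] at this
    linarith

theorem exists_p (c L : ℝ) : ∃ p : ℤ, L ≤ c + 4 * Real.pi * p ∧
    c + 4 * Real.pi * p ≤ L + 4 * Real.pi := by
  have hpi := Real.pi_pos
  refine ⟨⌈(L - c) / (4 * Real.pi)⌉, ?_, ?_⟩
  · have := Int.le_ceil ((L - c) / (4 * Real.pi))
    rw [div_le_iff₀ (by positivity)] at this
    linarith
  · have := Int.ceil_lt_add_one ((L - c) / (4 * Real.pi))
    rw [← sub_lt_iff_lt_add, lt_div_iff₀ (by positivity)] at this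
    linarith

/-- one dimensional family: the integrals -/
theorem exists_ab : ∃ M L₀ : ℝ, 0 ≤ M ∧ M ^ 2 + 1 ≤ L₀ ∧
    (∀ a b : ℝ, 0 ≤ a → a ≤ 1 → 0 ≤ b → b ≤ 1 → ∀ t, |b * deriv fs t + a * deriv gm t| ≤ M) ∧
    ∀ L : ℝ, L₀ ≤ L → ∀ θ : ℝ, ∃ (a b : ℝ) (m n : ℤ), 0 ≤ a ∧ a ≤ 1 ∧ 0 ≤ b ∧ b ≤ 1 ∧
      PI L a = 2 * θ - 2 * Real.pi * (m + n) ∧ QI L b + QJ L a = 2 * Real.pi * (n - m) := by
  obtain ⟨M, hM0, hMf, hMg, hMfg⟩ := exists_M
  have hd0 := gm_int_pos
  have he1 := fs_int_gt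
  have hPone := fun L => PI_one (L := L) hMg
  have hQone := fun L => QI_one (L := L) hMf
  generalize (∫ t in (1 / 2 : ℝ)..1, 2 * gm t) = d at hd0 hPone
  generalize (∫ t in (0 : ℝ)..(1 / 2), 2 * Real.sqrt (1 + (fs t) ^ 2)) = e at he1 hQone
  have hpi := Real.pi_pos
  have hd1 : 0 < 2 * Real.pi / d := by positivity
  have he2 : 0 < (4 * Real.pi + 1) / (e - 1) := div_pos (by linarith) (by linarith)
  have hMM := sq_nonneg M
  refine ⟨M, M ^ 2 + 1 + 2 * Real.pi / d + (4 * Real.pi + 1) / (e - 1), hM0, by linarith,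
    hMfg, ?_⟩
  intro L hL θ
  have hLM : M ^ 2 + 1 ≤ L := by linarith
  have hL1 : 0 ≤ L - 1 := by linarith
  obtain ⟨j, hj1, hj2⟩ := exists_j θ
  have hP1 : 2 * Real.pi ≤ PI L 1 := by
    have h3 : 2 * Real.pi / d ≤ L - 1 := by linarith
    rw [div_le_iff₀ hd0] at h3
    exact h3.trans (hPone L hLM)
  obtain ⟨a, ⟨ha0, ha1⟩, haP⟩ := intermediate_value_Icc (zero_le_one' ℝ) (contP L).continuousOn
    (show 2 * θ - 2 * Real.pi * j ∈ Set.Icc _ _ from ⟨by
      rw [PI_zero]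
      exact hj1, hj2.trans hP1⟩)
  obtain ⟨p, hp1, hp2⟩ := exists_p (2 * Real.pi * j - QJ L a) L
  have hQ1 : L + 4 * Real.pi ≤ QI L 1 := by
    have h3 : (4 * Real.pi + 1) / (e - 1) ≤ L - 1 := by linarith
    rw [div_le_iff₀ (by linarith)] at h3
    have h4 := hQone L hLM
    linarith
  obtain ⟨b, ⟨hb0, hb1⟩, hbQ⟩ := intermediate_value_Icc (zero_le_one' ℝ) (contQ L).continuousOn
    (show 2 * Real.pi * j - QJ L a + 4 * Real.pi * p ∈ Set.Icc _ _ from ⟨by
      rw [QI_zero (by linarith)]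
      exact hp1, hp2.trans hQ1⟩)
  refine ⟨a, b, -p, j + p, ha0, ha1, hb0, hb1, ?_, ?_⟩
  · rw [haP]
    push_cast
    ring
  · rw [hbQ]
    push_cast
    ring

/-- the profile -/
noncomputable def zf (a b t : ℝ) : ℝ := b * fs t + a * gm t

/-- its derivative -/
noncomputable def zf' (a b t : ℝ) : ℝ := b * deriv fs t + a * deriv gm t

theorem zf_smooth (a b : ℝ) : ContDiff ℝ ∞ (zf a b) :=
  (contDiff_const.mul fs_smooth).add (contDiff_const.mul gm_smooth)

theorem zf_deriv (a b t : ℝ) : HasDerivAt (zf a b) (zf' a b t) t :=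
  (((fs_smooth.differentiable (by simp)) t).hasDerivAt.const_mul b).add
    (((gm_smooth.differentiable (by simp)) t).hasDerivAt.const_mul a)

theorem deriv_infty {f : ℝ → ℝ} (hf : ContDiff ℝ ∞ f) : ContDiff ℝ ∞ (deriv f) :=
  (contDiff_infty_iff_deriv.1 hf).2

theorem zf'_smooth (a b : ℝ) : ContDiff ℝ ∞ (zf' a b) :=
  (contDiff_const.mul (deriv_infty fs_smooth)).add (contDiff_const.mul (deriv_infty gm_smooth))

theorem zf_per (a b t : ℝ) : zf a b (t + 1) = zf a b t := by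
  unfold zf
  rw [fs_per, gm_per]

theorem zf'_per (a b t : ℝ) : zf' a b (t + 1) = zf' a b t := by
  unfold zf'
  rw [deriv_per fs_per, deriv_per gm_per]

theorem zf_left (a b : ℝ) {t : ℝ} (h0 : 0 ≤ t) (h1 : t ≤ 1 / 2) :
    zf a b t = b * fs t ∧ zf' a b t = b * deriv fs t := by
  unfold zf zf'
  rw [gm_zero h0 h1, deriv_zero_of_min gm_nonneg (gm_zero h0 h1), mul_zero, add_zero, add_zero]
  exact ⟨rfl, rfl⟩

theorem zf_right (a b : ℝ) {t : ℝ} (h0 : 1 / 2 ≤ t) (h1 : t ≤ 1) :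
    zf a b t = a * gm t ∧ zf' a b t = a * deriv gm t := by
  unfold zf zf'
  rw [fs_zero h0 h1, fs_deriv_zero h0 h1, mul_zero, zero_add, zero_add]
  exact ⟨rfl, rfl⟩

/-- the remaining speed -/
noncomputable def Nn (L a b t : ℝ) : ℝ := Nv L (zf a b t) (zf' a b t)

theorem Nn_per (L a b t : ℝ) : Nn L a b (t + 1) = Nn L a b t := by
  unfold Nn
  rw [zf_per, zf'_per]

theorem Nn_smooth {L M a b : ℝ} (hL : M ^ 2 + 1 ≤ L) (h : ∀ t, |zf' a b t| ≤ M) :
    ContDiff ℝ ∞ (Nn L a b) := by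
  unfold Nn Nv wv
  refine ContDiff.sqrt ?_ fun t => ?_
  · refine contDiff_const.sub (((zf'_smooth a b).div (contDiff_const.mul
      (contDiff_const.add ((zf_smooth a b).pow 2))) fun t => ?_).pow 2)
    show 2 * (1 + zf a b t ^ 2) ≠ 0
    positivity
  · exact (rad_pos (z := zf a b t) hL (h t)).2.1.ne'

theorem sq_smooth (a b : ℝ) : ContDiff ℝ ∞ (fun t => Real.sqrt (1 + zf a b t ^ 2)) := by
  refine ContDiff.sqrt (contDiff_const.add ((zf_smooth a b).pow 2)) fun t => ?_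
  positivity

theorem int_z {L M a b : ℝ} (hL : M ^ 2 + 1 ≤ L) (h : ∀ t, |zf' a b t| ≤ M) :
    ∫ t in (0 : ℝ)..1, 2 * zf a b t * Nn L a b t = PI L a := by
  have hc : Continuous (fun t => 2 * zf a b t * Nn L a b t) :=
    (continuous_const.mul (zf_smooth a b).continuous).mul (Nn_smooth hL h).continuous
  rw [← intervalIntegral.integral_add_adjacent_intervals (hc.intervalIntegrable 0 (1 / 2))
    (hc.intervalIntegrable (1 / 2) 1)]
  have h1 : ∫ t in (0 : ℝ)..(1 / 2), 2 * zf a b t * Nn L a b t = 0 := by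
    have h2 : ∫ t in (0 : ℝ)..(1 / 2), 2 * zf a b t * Nn L a b t =
        ∫ t in (0 : ℝ)..(1 / 2), 2 * (b * fs t) * Nv L (b * fs t) (b * deriv fs t) := by
      refine intervalIntegral.integral_congr fun t ht => ?_
      rw [Set.uIcc_of_le (by norm_num)] at ht
      obtain ⟨e1, e2⟩ := zf_left a b ht.1 ht.2
      simp only [Nn, e1, e2]
    have h3 := intervalIntegral.integral_comp_sub_left
      (fun t => 2 * (b * fs t) * Nv L (b * fs t) (b * deriv fs t)) (a := 0) (b := 1 / 2) (1 / 2)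
    have h4 : ∀ t : ℝ, 2 * (b * fs (1 / 2 - t)) * Nv L (b * fs (1 / 2 - t))
        (b * deriv fs (1 / 2 - t)) = -(2 * (b * fs t) * Nv L (b * fs t) (b * deriv fs t)) := by
      intro t
      rw [fs_anti, fs_deriv_symm]
      unfold Nv wv
      rw [mul_neg, neg_sq]
      ring
    simp only [h4] at h3
    rw [intervalIntegral.integral_neg, sub_self, sub_zero] at h3
    rw [h2]
    linarith
  rw [h1, zero_add]
  unfold PI
  refine intervalIntegral.integral_congr fun t ht => ?_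
  rw [Set.uIcc_of_le (by norm_num)] at ht
  obtain ⟨e1, e2⟩ := zf_right a b ht.1 ht.2
  simp only [Nn, e1, e2]

theorem int_sq {L M a b : ℝ} (hL : M ^ 2 + 1 ≤ L) (h : ∀ t, |zf' a b t| ≤ M) :
    ∫ t in (0 : ℝ)..1, 2 * Real.sqrt (1 + zf a b t ^ 2) * Nn L a b t = QI L b + QJ L a := by
  have hc : Continuous (fun t => 2 * Real.sqrt (1 + zf a b t ^ 2) * Nn L a b t) :=
    (continuous_const.mul (sq_smooth a b).continuous).mul (Nn_smooth hL h).continuous
  rw [← intervalIntegral.integral_add_adjacent_intervals (hc.intervalIntegrable 0 (1 / 2))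
    (hc.intervalIntegrable (1 / 2) 1)]
  congr 1
  · unfold QI
    refine intervalIntegral.integral_congr fun t ht => ?_
    rw [Set.uIcc_of_le (by norm_num)] at ht
    obtain ⟨e1, e2⟩ := zf_left a b ht.1 ht.2
    simp only [Nn, e1, e2]
  · unfold QJ
    refine intervalIntegral.integral_congr fun t ht => ?_
    rw [Set.uIcc_of_le (by norm_num)] at ht
    obtain ⟨e1, e2⟩ := zf_right a b ht.1 ht.2
    simp only [Nn, e1, e2]

theorem cos_sin_phi (z : ℝ) :
    Real.cos (Real.pi / 4 + Real.arctan z / 2) ^ 2 =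
      (Real.sqrt (1 + z ^ 2) - z) / (2 * Real.sqrt (1 + z ^ 2)) ∧
    Real.sin (Real.pi / 4 + Real.arctan z / 2) ^ 2 =
      (Real.sqrt (1 + z ^ 2) + z) / (2 * Real.sqrt (1 + z ^ 2)) := by
  have hs : 0 < Real.sqrt (1 + z ^ 2) := Real.sqrt_pos.2 (by positivity)
  have h2 : Real.cos (2 * (Real.pi / 4 + Real.arctan z / 2)) = -(z / Real.sqrt (1 + z ^ 2)) := by
    have e : 2 * (Real.pi / 4 + Real.arctan z / 2) = Real.arctan z + Real.pi / 2 := by ring
    rw [e, Real.cos_add_pi_div_two, Real.sin_arctan]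
  have h3 := Real.cos_sq (Real.pi / 4 + Real.arctan z / 2)
  rw [h2] at h3
  have h4 := Real.sin_sq_add_cos_sq (Real.pi / 4 + Real.arctan z / 2)
  constructor
  · rw [h3]
    field_simp
    ring
  · have h5 : Real.sin (Real.pi / 4 + Real.arctan z / 2) ^ 2 =
      1 - Real.cos (Real.pi / 4 + Real.arctan z / 2) ^ 2 := by linarith
    rw [h5, h3]
    field_simp
    ring

theorem exists_curve : ∃ L₀ : ℝ, ∀ L : ℝ, L₀ ≤ L → ∀ θ : ℝ,
    ∃ (φ α β : ℝ → ℝ) (m n : ℤ), ContDiff ℝ ∞ φ ∧ ContDiff ℝ ∞ α ∧ ContDiff ℝ ∞ β ∧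
      (∀ t, φ (t + 1) = φ t) ∧ (∀ t, α (t + 1) = α t + (2 * Real.pi * m - θ)) ∧
      (∀ t, β (t + 1) = β t + (2 * Real.pi * n - θ)) ∧
      (∀ t, Real.cos (φ t) ^ 2 * deriv α t + Real.sin (φ t) ^ 2 * deriv β t = 0) ∧
      (∀ t, deriv φ t ^ 2 + Real.cos (φ t) ^ 2 * deriv α t ^ 2 +
        Real.sin (φ t) ^ 2 * deriv β t ^ 2 = L ^ 2) := by
  obtain ⟨M, L₀, hM0, hML, hMfg, H⟩ := exists_ab
  refine ⟨L₀, fun L hL θ => ?_⟩
  obtain ⟨a, b, m, n, ha0, ha1, hb0, hb1, hP, hQ⟩ := H L hL θ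
  have hLM : M ^ 2 + 1 ≤ L := hML.trans hL
  have hz' : ∀ t, |zf' a b t| ≤ M := hMfg a b ha0 ha1 hb0 hb1
  have hN := Nn_smooth hLM hz'
  have hz := zf_smooth a b
  have hs := sq_smooth a b
  have hA : ContDiff ℝ ∞ (fun t => (Real.sqrt (1 + zf a b t ^ 2) + zf a b t) * Nn L a b t) :=
    (hs.add hz).mul hN
  have hB : ContDiff ℝ ∞ (fun t => (Real.sqrt (1 + zf a b t ^ 2) - zf a b t) * Nn L a b t) :=
    (hs.sub hz).mul hN
  obtain ⟨hA1, hA2⟩ := prim_spec hA
  obtain ⟨hB1, hB2⟩ := prim_spec hB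
  have hAp := prim_per hA.continuous (fun t => by rw [zf_per, Nn_per])
  have hBp := prim_per hB.continuous (fun t => by rw [zf_per, Nn_per])
  have iz := int_z hLM hz'
  have is := int_sq hLM hz'
  have hcz : Continuous (fun t => 2 * zf a b t * Nn L a b t) :=
    (continuous_const.mul hz.continuous).mul hN.continuous
  have hcs : Continuous (fun t => 2 * Real.sqrt (1 + zf a b t ^ 2) * Nn L a b t) :=
    (continuous_const.mul hs.continuous).mul hN.continuous
  have iA : ∫ t in (0 : ℝ)..1, (Real.sqrt (1 + zf a b t ^ 2) + zf a b t) * Nn L a b t =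
      θ - 2 * Real.pi * m := by
    have e : (fun t => (Real.sqrt (1 + zf a b t ^ 2) + zf a b t) * Nn L a b t) =
        fun t => (1 / 2 : ℝ) * (2 * Real.sqrt (1 + zf a b t ^ 2) * Nn L a b t +
          2 * zf a b t * Nn L a b t) := by
      funext t
      ring
    rw [e, intervalIntegral.integral_const_mul, intervalIntegral.integral_add
      (hcs.intervalIntegrable _ _) (hcz.intervalIntegrable _ _), iz, is, hP, hQ]
    ring
  have iB : ∫ t in (0 : ℝ)..1, (Real.sqrt (1 + zf a b t ^ 2) - zf a b t) * Nn L a b t =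
      2 * Real.pi * n - θ := by
    have e : (fun t => (Real.sqrt (1 + zf a b t ^ 2) - zf a b t) * Nn L a b t) =
        fun t => (1 / 2 : ℝ) * (2 * Real.sqrt (1 + zf a b t ^ 2) * Nn L a b t -
          2 * zf a b t * Nn L a b t) := by
      funext t
      ring
    rw [e, intervalIntegral.integral_const_mul, intervalIntegral.integral_sub
      (hcs.intervalIntegrable _ _) (hcz.intervalIntegrable _ _), iz, is, hP, hQ]
    ring
  refine ⟨fun t => Real.pi / 4 + Real.arctan (zf a b t) / 2,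
    fun t => -∫ x in (0 : ℝ)..t, (Real.sqrt (1 + zf a b x ^ 2) + zf a b x) * Nn L a b x,
    fun t => ∫ x in (0 : ℝ)..t, (Real.sqrt (1 + zf a b x ^ 2) - zf a b x) * Nn L a b x,
    m, n, ?_, hA1.neg, hB1, ?_, ?_, ?_, ?_, ?_⟩
  · exact contDiff_const.add ((Real.contDiff_arctan.comp hz).div_const 2)
  · intro t
    show Real.pi / 4 + Real.arctan (zf a b (t + 1)) / 2 = Real.pi / 4 + Real.arctan (zf a b t) / 2
    rw [zf_per]
  · intro t
    show -(∫ x in (0 : ℝ)..(t + 1), (Real.sqrt (1 + zf a b x ^ 2) + zf a b x) * Nn L a b x) = _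
    rw [hAp, iA]
    ring
  · intro t
    show (∫ x in (0 : ℝ)..(t + 1), (Real.sqrt (1 + zf a b x ^ 2) - zf a b x) * Nn L a b x) = _
    rw [hBp, iB]
  · intro t
    rw [(hA2 t).fun_neg.deriv, (hB2 t).deriv]
    obtain ⟨e1, e2⟩ := cos_sin_phi (zf a b t)
    rw [e1, e2]
    have hs0 : 0 < Real.sqrt (1 + zf a b t ^ 2) := Real.sqrt_pos.2 (by positivity)
    have hs2 : Real.sqrt (1 + zf a b t ^ 2) ^ 2 = 1 + zf a b t ^ 2 := Real.sq_sqrt (by positivity)
    field_simp
    ring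
  · intro t
    have hφ : HasDerivAt (fun t => Real.pi / 4 + Real.arctan (zf a b t) / 2)
        (wv (zf a b t) (zf' a b t)) t := by
      have h1 := ((zf_deriv a b t).arctan.div_const 2).const_add (Real.pi / 4)
      have e : wv (zf a b t) (zf' a b t) = 1 / (1 + zf a b t ^ 2) * zf' a b t / 2 := by
        unfold wv
        have : (0 : ℝ) < 1 + zf a b t ^ 2 := by positivity
        field_simp
      rw [e]
      exact h1
    rw [(hA2 t).fun_neg.deriv, (hB2 t).deriv, hφ.deriv]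
    obtain ⟨e1, e2⟩ := cos_sin_phi (zf a b t)
    rw [e1, e2]
    have hs0 : 0 < Real.sqrt (1 + zf a b t ^ 2) := Real.sqrt_pos.2 (by positivity)
    have hs2 : Real.sqrt (1 + zf a b t ^ 2) ^ 2 = 1 + zf a b t ^ 2 := Real.sq_sqrt (by positivity)
    have hN2 : Nn L a b t ^ 2 = L ^ 2 - wv (zf a b t) (zf' a b t) ^ 2 :=
      Real.sq_sqrt (rad_pos (z := zf a b t) hLM (hz' t)).2.1.le
    generalize Real.sqrt (1 + zf a b t ^ 2) = S at *
    generalize Nn L a b t = N at *
    generalize zf a b t = z at *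
    have hk : (S - z) / (2 * S) * (-((S + z) * N)) ^ 2 + (S + z) / (2 * S) * ((S - z) * N) ^ 2 =
        N ^ 2 := by
      have hk1 : (S - z) * (S + z) = 1 := by nlinarith
      have : (S - z) / (2 * S) * (-((S + z) * N)) ^ 2 + (S + z) / (2 * S) * ((S - z) * N) ^ 2 =
        ((S - z) * (S + z)) * N ^ 2 * (2 * S) / (2 * S) := by
        ring
      rw [this, hk1]
      field_simp
    linarith

end Vale.Agent.P205
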