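import Vale.Agent.P205.MapA
import Vale.Agent.P205.Curve

/-! # P205: assembly for `E(u) du² + 2 F(u) du dv + G(u) dv²` -/

open scoped ContDiff RealInnerProductSpace
open MeasureTheory intervalIntegral

namespace Vale.Agent.P205

/-- the algebra -/
theorem alg_E (c s ρ ρ' f σ' A B h' E F G D r L V κ : ℝ) (hcs : s ^ 2 + c ^ 2 = 1)
    (h1 : c ^ 2 * A + s ^ 2 * B = 0) (h2 : f ^ 2 + c ^ 2 * A ^ 2 + s ^ 2 * B ^ 2 = L ^ 2)
    (hσ : σ' * L = V) (hV : V ^ 2 = κ ^ 2 * D - r ^ 2) (hD : D = E / G - F ^ 2 / G ^ 2)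
    (hρ : ρ ^ 2 = G / κ ^ 2) (hρ' : ρ' = r * ρ) (hh : h' = κ * F / G) (hκ : κ ≠ 0) (hG : G ≠ 0) :
    (ρ' * c - ρ * s * (f * σ')) ^ 2 + (ρ' * s + ρ * c * (f * σ')) ^ 2 +
      (ρ * c) ^ 2 * (h' + A * σ') ^ 2 + (ρ * s) ^ 2 * (h' + B * σ') ^ 2 = E := by
  have e1 : (ρ' * c - ρ * s * (f * σ')) ^ 2 + (ρ' * s + ρ * c * (f * σ')) ^ 2 +
      (ρ * c) ^ 2 * (h' + A * σ') ^ 2 + (ρ * s) ^ 2 * (h' + B * σ') ^ 2 =
      (s ^ 2 + c ^ 2) * (ρ' ^ 2 + ρ ^ 2 * f ^ 2 * σ' ^ 2 + ρ ^ 2 * h' ^ 2) +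
      2 * ρ ^ 2 * h' * σ' * (c ^ 2 * A + s ^ 2 * B) +
      ρ ^ 2 * σ' ^ 2 * (c ^ 2 * A ^ 2 + s ^ 2 * B ^ 2) := by ring
  have e2 : c ^ 2 * A ^ 2 + s ^ 2 * B ^ 2 = L ^ 2 - f ^ 2 := by linarith
  rw [e1, hcs, h1, e2]
  have e3 : 1 * (ρ' ^ 2 + ρ ^ 2 * f ^ 2 * σ' ^ 2 + ρ ^ 2 * h' ^ 2) + 2 * ρ ^ 2 * h' * σ' * 0 +
      ρ ^ 2 * σ' ^ 2 * (L ^ 2 - f ^ 2) = ρ' ^ 2 + ρ ^ 2 * h' ^ 2 + ρ ^ 2 * (σ' * L) ^ 2 := by ring
  rw [e3, hσ, hV, hρ', hD, mul_pow, hρ, hh]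
  field_simp
  ring

theorem alg_F (c s ρ σ' A B h' F G κ : ℝ) (hcs : s ^ 2 + c ^ 2 = 1)
    (h1 : c ^ 2 * A + s ^ 2 * B = 0) (hρ : ρ ^ 2 = G / κ ^ 2) (hh : h' = κ * F / G)
    (hκ : κ ≠ 0) (hG : G ≠ 0) :
    κ * ((ρ * c) ^ 2 * (h' + A * σ') + (ρ * s) ^ 2 * (h' + B * σ')) = F := by
  have e1 : κ * ((ρ * c) ^ 2 * (h' + A * σ') + (ρ * s) ^ 2 * (h' + B * σ')) =
      κ * ρ ^ 2 * ((s ^ 2 + c ^ 2) * h' + σ' * (c ^ 2 * A + s ^ 2 * B)) := by ring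
  rw [e1, hcs, h1, hρ, hh]
  field_simp
  ring

theorem alg_G (c s ρ G κ : ℝ) (hcs : s ^ 2 + c ^ 2 = 1) (hρ : ρ ^ 2 = G / κ ^ 2) (hκ : κ ≠ 0) :
    κ ^ 2 * ((ρ * c) ^ 2 + (ρ * s) ^ 2) = G := by
  have e1 : κ ^ 2 * ((ρ * c) ^ 2 + (ρ * s) ^ 2) = κ ^ 2 * ρ ^ 2 * (s ^ 2 + c ^ 2) := by ring
  rw [e1, hcs, hρ]
  field_simp

theorem exists_k (δ X : ℝ) (hδ : 0 < δ) : ∃ k : ℤ, 0 < k ∧ X ≤ (2 * Real.pi * k) ^ 2 * δ := by
  obtain ⟨n, hn⟩ := exists_nat_gt (|X| / δ)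
  refine ⟨(n : ℤ) + 1, by positivity, ?_⟩
  rw [div_lt_iff₀ hδ] at hn
  push_cast
  have h1 : (1 : ℝ) ≤ (n : ℝ) + 1 := by
    have : (0 : ℝ) ≤ n := Nat.cast_nonneg n
    linarith
  have h2 : (1 : ℝ) ≤ 2 * Real.pi := by linarith [Real.pi_gt_three]
  have h3 : (n : ℝ) + 1 ≤ 2 * Real.pi * ((n : ℝ) + 1) := by nlinarith
  have h4 : (n : ℝ) + 1 ≤ (2 * Real.pi * ((n : ℝ) + 1)) ^ 2 := by nlinarith
  have h5 : X ≤ |X| := le_abs_self X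
  nlinarith

theorem exists_imm_EFG {E F G : ℝ → ℝ} (hE : ContDiff ℝ ∞ E) (hF : ContDiff ℝ ∞ F)
    (hG : ContDiff ℝ ∞ G) (pE : ∀ t, E (t + 1) = E t) (pF : ∀ t, F (t + 1) = F t)
    (pG : ∀ t, G (t + 1) = G t) (posG : ∀ t, 0 < G t) (posD : ∀ t, 0 < E t * G t - F t ^ 2) :
    ∃ Φ : ℝ × ℝ → EuclideanSpace ℝ (Fin 4), ContDiff ℝ ∞ Φ ∧
      (∀ x, Φ (x + (1, 0)) = Φ x ∧ Φ (x + (0, 1)) = Φ x) ∧
      ∀ x v w, ⟪fderiv ℝ Φ x v, fderiv ℝ Φ x w⟫ =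
        E x.1 * (v.1 * w.1) + F x.1 * (v.1 * w.2 + v.2 * w.1) + G x.1 * (v.2 * w.2) := by
  obtain ⟨L₀, HL⟩ := exists_curve
  -- the radius
  set ρ₁ : ℝ → ℝ := fun t => Real.sqrt (G t) with hρ₁
  have sρ₁ : ContDiff ℝ ∞ ρ₁ := hG.sqrt fun t => (posG t).ne'
  have pρ₁ : ∀ t, ρ₁ (t + 1) = ρ₁ t := fun t => by
    show Real.sqrt (G (t + 1)) = Real.sqrt (G t)
    rw [pG]
  have posρ₁ : ∀ t, 0 < ρ₁ t := fun t => Real.sqrt_pos.2 (posG t)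
  have sqρ₁ : ∀ t, ρ₁ t ^ 2 = G t := fun t => Real.sq_sqrt (posG t).le
  have sρ₁' : ContDiff ℝ ∞ (deriv ρ₁) := deriv_infty sρ₁
  set r : ℝ → ℝ := fun t => deriv ρ₁ t / ρ₁ t with hr
  have sr : ContDiff ℝ ∞ r := sρ₁'.div sρ₁ fun t => (posρ₁ t).ne'
  have pr : ∀ t, r (t + 1) = r t := fun t => by
    show deriv ρ₁ (t + 1) / ρ₁ (t + 1) = deriv ρ₁ t / ρ₁ t
    rw [pρ₁, deriv_per pρ₁]
  obtain ⟨R, hR0, hR⟩ := per_bdd sr.continuous pr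
  set D : ℝ → ℝ := fun t => E t / G t - F t ^ 2 / G t ^ 2 with hD
  have sD : ContDiff ℝ ∞ D := (hE.div hG fun t => (posG t).ne').sub
    ((hF.pow 2).div (hG.pow 2) fun t => (pow_pos (posG t) 2).ne')
  have pD : ∀ t, D (t + 1) = D t := fun t => by
    show E (t + 1) / G (t + 1) - F (t + 1) ^ 2 / G (t + 1) ^ 2 = E t / G t - F t ^ 2 / G t ^ 2
    rw [pE, pF, pG]
  have posD' : ∀ t, 0 < D t := fun t => by
    show 0 < E t / G t - F t ^ 2 / G t ^ 2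
    have h1 := posG t
    have : E t / G t - F t ^ 2 / G t ^ 2 = (E t * G t - F t ^ 2) / G t ^ 2 := by
      field_simp
    rw [this]
    exact div_pos (posD t) (pow_pos h1 2)
  obtain ⟨t₀, ht₀⟩ := per_min sD.continuous pD
  obtain ⟨k, hk0, hk⟩ := exists_k (D t₀) (R ^ 2 + L₀ ^ 2 + 1) (posD' t₀)
  set κ : ℝ := 2 * Real.pi * k with hκ
  have hκ0 : 0 < κ := by
    have : (0 : ℝ) < k := by exact_mod_cast hk0
    have := Real.pi_pos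
    positivity
  set W : ℝ → ℝ := fun t => κ ^ 2 * D t - r t ^ 2 with hW
  have hWge : ∀ t, L₀ ^ 2 + 1 ≤ W t := fun t => by
    show L₀ ^ 2 + 1 ≤ κ ^ 2 * D t - r t ^ 2
    have h1 := ht₀ t
    have h2 : r t ^ 2 ≤ R ^ 2 := by
      rw [← sq_abs (r t)]
      exact pow_le_pow_left₀ (abs_nonneg _) (hR t) 2
    have h3 : κ ^ 2 * D t₀ ≤ κ ^ 2 * D t := mul_le_mul_of_nonneg_left h1 (sq_nonneg κ)
    linarith
  have hWpos : ∀ t, 0 < W t := fun t => by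
    have := hWge t
    nlinarith [sq_nonneg L₀]
  set V : ℝ → ℝ := fun t => Real.sqrt (W t) with hV
  have sV : ContDiff ℝ ∞ V :=
    ((contDiff_const.mul sD).sub (sr.pow 2)).sqrt fun t => (hWpos t).ne'
  have pV : ∀ t, V (t + 1) = V t := fun t => by
    show Real.sqrt (κ ^ 2 * D (t + 1) - r (t + 1) ^ 2) = Real.sqrt (κ ^ 2 * D t - r t ^ 2)
    rw [pD, pr]
  have sqV : ∀ t, V t ^ 2 = W t := fun t => Real.sq_sqrt (hWpos t).le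
  have hVge : ∀ t, |L₀| + 0 ≤ V t ∧ 1 ≤ V t := fun t => by
    have h1 := hWge t
    refine ⟨?_, ?_⟩
    · rw [add_zero]
      refine Real.le_sqrt_of_sq_le ?_
      rw [sq_abs]
      linarith
    · refine Real.le_sqrt_of_sq_le ?_
      nlinarith [sq_nonneg L₀]
  set L : ℝ := ∫ t in (0 : ℝ)..1, V t with hL
  have hLge : L₀ ≤ L ∧ 1 ≤ L := by
    have h1 : ∀ c : ℝ, (∀ t, c ≤ V t) → c ≤ L := by
      intro c hc
      have : ∫ t in (0 : ℝ)..1, c ≤ ∫ t in (0 : ℝ)..1, V t :=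
        intervalIntegral.integral_mono_on (by norm_num) (continuous_const.intervalIntegrable _ _)
          (sV.continuous.intervalIntegrable _ _) fun t _ => hc t
      simpa using this
    refine ⟨(le_abs_self L₀).trans (h1 _ fun t => ?_), h1 _ fun t => (hVge t).2⟩
    have := (hVge t).1
    linarith
  have hL0 : 0 < L := by linarith [hLge.2]
  obtain ⟨sσ, dσ⟩ := prim_spec sV
  have pσ := prim_per sV.continuous pV
  rw [← hL] at pσ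
  set σ : ℝ → ℝ := fun t => (∫ x in (0 : ℝ)..t, V x) / L with hσ
  have sσ' : ContDiff ℝ ∞ σ := sσ.div_const L
  have dσ' : ∀ t, HasDerivAt σ (V t / L) t := fun t => (dσ t).div_const L
  have pσ' : ∀ t, σ (t + 1) = σ t + 1 := fun t => by
    show (∫ x in (0 : ℝ)..(t + 1), V x) / L = (∫ x in (0 : ℝ)..t, V x) / L + 1
    rw [pσ]
    field_simp
  -- the twist
  set η : ℝ → ℝ := fun t => κ * F t / G t with hη
  have sη : ContDiff ℝ ∞ η := (contDiff_const.mul hF).div hG fun t => (posG t).ne'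
  have pη : ∀ t, η (t + 1) = η t := fun t => by
    show κ * F (t + 1) / G (t + 1) = κ * F t / G t
    rw [pF, pG]
  obtain ⟨sh, dh⟩ := prim_spec sη
  have ph := prim_per sη.continuous pη
  set h : ℝ → ℝ := fun t => ∫ x in (0 : ℝ)..t, η x with hh
  set θ : ℝ := ∫ x in (0 : ℝ)..1, η x with hθ
  obtain ⟨φ, α, β, m, n, sφ, sα, sβ, pφ, pα, pβ, i1, i2⟩ := HL L hLge.1 θ
  have dφ : ∀ t, HasDerivAt φ (deriv φ t) t := fun t =>
    ((sφ.differentiable (by simp)) t).hasDerivAt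
  have dα : ∀ t, HasDerivAt α (deriv α t) t := fun t =>
    ((sα.differentiable (by simp)) t).hasDerivAt
  have dβ : ∀ t, HasDerivAt β (deriv β t) t := fun t =>
    ((sβ.differentiable (by simp)) t).hasDerivAt
  have dρ₁ : ∀ t, HasDerivAt ρ₁ (deriv ρ₁ t) t := fun t =>
    ((sρ₁.differentiable (by simp)) t).hasDerivAt
  set p : ℝ → ℝ := fun t => ρ₁ t / κ * Real.cos (φ (σ t)) with hp
  set q : ℝ → ℝ := fun t => ρ₁ t / κ * Real.sin (φ (σ t)) with hq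
  set a : ℝ → ℝ := fun t => h t + α (σ t) with ha
  set b : ℝ → ℝ := fun t => h t + β (σ t) with hb
  have sφσ : ContDiff ℝ ∞ (fun t => φ (σ t)) := sφ.comp sσ'
  have sp : ContDiff ℝ ∞ p := (sρ₁.div_const κ).mul (Real.contDiff_cos.comp sφσ)
  have sq : ContDiff ℝ ∞ q := (sρ₁.div_const κ).mul (Real.contDiff_sin.comp sφσ)
  have sa : ContDiff ℝ ∞ a := sh.add (sα.comp sσ')
  have sb : ContDiff ℝ ∞ b := sh.add (sβ.comp sσ')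
  have dφσ : ∀ t, HasDerivAt (fun t => φ (σ t)) (deriv φ (σ t) * (V t / L)) t := fun t =>
    (dφ (σ t)).comp t (dσ' t)
  have dp : ∀ t, deriv p t = deriv ρ₁ t / κ * Real.cos (φ (σ t)) -
      ρ₁ t / κ * Real.sin (φ (σ t)) * (deriv φ (σ t) * (V t / L)) := fun t => by
    have h1 := ((dρ₁ t).div_const κ).mul (dφσ t).cos
    have h2 := h1.deriv
    have h3 : deriv p t = deriv ρ₁ t / κ * Real.cos (φ (σ t)) +
      ρ₁ t / κ * (-Real.sin (φ (σ t)) * (deriv φ (σ t) * (V t / L))) := h2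
    rw [h3]
    ring
  have dq : ∀ t, deriv q t = deriv ρ₁ t / κ * Real.sin (φ (σ t)) +
      ρ₁ t / κ * Real.cos (φ (σ t)) * (deriv φ (σ t) * (V t / L)) := fun t => by
    have h1 := ((dρ₁ t).div_const κ).mul (dφσ t).sin
    have h2 := h1.deriv
    have h3 : deriv q t = deriv ρ₁ t / κ * Real.sin (φ (σ t)) +
      ρ₁ t / κ * (Real.cos (φ (σ t)) * (deriv φ (σ t) * (V t / L))) := h2
    rw [h3]
    ring
  have da : ∀ t, deriv a t = η t + deriv α (σ t) * (V t / L) := fun t =>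
    ((dh t).add ((dα (σ t)).comp t (dσ' t))).deriv
  have db : ∀ t, deriv b t = η t + deriv β (σ t) * (V t / L) := fun t =>
    ((dh t).add ((dβ (σ t)).comp t (dσ' t))).deriv
  refine ⟨mapA p q a b κ, mapA_smooth sp sq sa sb κ, ?_, ?_⟩
  · intro x
    refine mapA_per ?_ ?_ m n ?_ ?_ k x
    · intro u
      show ρ₁ (u + 1) / κ * Real.cos (φ (σ (u + 1))) = ρ₁ u / κ * Real.cos (φ (σ u))
      rw [pρ₁, pσ', pφ]
    · intro u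
      show ρ₁ (u + 1) / κ * Real.sin (φ (σ (u + 1))) = ρ₁ u / κ * Real.sin (φ (σ u))
      rw [pρ₁, pσ', pφ]
    · intro u
      have h1 := ph u
      have h2 := pα (σ u)
      show (∫ x in (0 : ℝ)..(u + 1), η x) + α (σ (u + 1)) =
        (∫ x in (0 : ℝ)..u, η x) + α (σ u) + 2 * Real.pi * m
      rw [h1, pσ', h2]
      ring
    · intro u
      have h1 := ph u
      have h2 := pβ (σ u)
      show (∫ x in (0 : ℝ)..(u + 1), η x) + β (σ (u + 1)) =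
        (∫ x in (0 : ℝ)..u, η x) + β (σ u) + 2 * Real.pi * n
      rw [h1, pσ', h2]
      ring
  · intro x v w
    rw [mapA_inner sp sq sa sb, dp, dq, da, db]
    have hρ : (ρ₁ x.1 / κ) ^ 2 = G x.1 / κ ^ 2 := by rw [div_pow, sqρ₁]
    have hρ' : deriv ρ₁ x.1 / κ = r x.1 * (ρ₁ x.1 / κ) := by
      show deriv ρ₁ x.1 / κ = deriv ρ₁ x.1 / ρ₁ x.1 * (ρ₁ x.1 / κ)
      have := (posρ₁ x.1).ne'
      field_simp
    have hσL : V x.1 / L * L = V x.1 := div_mul_cancel₀ _ hL0.ne'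
    have eE := alg_E (Real.cos (φ (σ x.1))) (Real.sin (φ (σ x.1))) (ρ₁ x.1 / κ)
      (deriv ρ₁ x.1 / κ) (deriv φ (σ x.1)) (V x.1 / L) (deriv α (σ x.1)) (deriv β (σ x.1))
      (η x.1) (E x.1) (F x.1) (G x.1) (D x.1) (r x.1) L (V x.1) κ
      (Real.sin_sq_add_cos_sq _) (i1 _) (i2 _) hσL (sqV x.1) rfl hρ hρ' rfl hκ0.ne' (posG x.1).ne'
    have eF := alg_F (Real.cos (φ (σ x.1))) (Real.sin (φ (σ x.1))) (ρ₁ x.1 / κ)
      (V x.1 / L) (deriv α (σ x.1)) (deriv β (σ x.1))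
      (η x.1) (F x.1) (G x.1) κ
      (Real.sin_sq_add_cos_sq _) (i1 _) hρ rfl hκ0.ne' (posG x.1).ne'
    have eG := alg_G (Real.cos (φ (σ x.1))) (Real.sin (φ (σ x.1))) (ρ₁ x.1 / κ) (G x.1) κ
      (Real.sin_sq_add_cos_sq _) hρ hκ0.ne'
    rw [eE]
    show E x.1 * (v.1 * w.1) + κ * ((ρ₁ x.1 / κ * Real.cos (φ (σ x.1))) ^ 2 *
      (η x.1 + deriv α (σ x.1) * (V x.1 / L)) + (ρ₁ x.1 / κ * Real.sin (φ (σ x.1))) ^ 2 *
      (η x.1 + deriv β (σ x.1) * (V x.1 / L))) * (v.1 * w.2 + v.2 * w.1) +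
      κ ^ 2 * ((ρ₁ x.1 / κ * Real.cos (φ (σ x.1))) ^ 2 +
      (ρ₁ x.1 / κ * Real.sin (φ (σ x.1))) ^ 2) * (v.2 * w.2) = _
    rw [eF, eG]

end Vale.Agent.P205
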