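import Vale.Agent.P205.Asm

/-! # P205: metrics on the torus invariant under a one parameter group of translations -/

open scoped ContDiff RealInnerProductSpace

namespace Vale.Agent.P205

/-- the plane -/
abbrev R2 : Type := ℝ × ℝ

/-- bilinear forms -/
abbrev Bil : Type := R2 →L[ℝ] R2 →L[ℝ] ℝ

theorem bil_expand (B : Bil) (hs : ∀ v w, B v w = B w v) (v w : R2) :
    B v w = B (1, 0) (1, 0) * (v.1 * w.1) + B (1, 0) (0, 1) * (v.1 * w.2 + v.2 * w.1) +
      B (0, 1) (0, 1) * (v.2 * w.2) := by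
  have hv : v = v.1 • ((1, 0) : R2) + v.2 • ((0, 1) : R2) := by
    ext <;> simp
  have hw : w = w.1 • ((1, 0) : R2) + w.2 • ((0, 1) : R2) := by
    ext <;> simp
  conv_lhs => rw [hv, hw]
  simp only [map_add, map_smul, add_apply, smul_apply, smul_eq_mul]
  rw [hs (0, 1) (1, 0)]
  ring

theorem case_vert (g : R2 → Bil) (hg : ContDiff ℝ ∞ g) (hs : ∀ x v w, g x v w = g x w v)
    (hp : ∀ x v, v ≠ 0 → 0 < g x v v) (h1 : ∀ x, g (x + (1, 0)) = g x)
    (h2 : ∀ x (t : ℝ), g (x + (0, t)) = g x) :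
    ∃ Φ : R2 → EuclideanSpace ℝ (Fin 4), ContDiff ℝ ∞ Φ ∧
      (∀ x, Φ (x + (1, 0)) = Φ x ∧ Φ (x + (0, 1)) = Φ x) ∧
      ∀ x v w, ⟪fderiv ℝ Φ x v, fderiv ℝ Φ x w⟫ = g x v w := by
  have key : ∀ v w : R2, ContDiff ℝ ∞ (fun t : ℝ => g (t, 0) v w) ∧
      ∀ t, g (t + 1, 0) v w = g (t, 0) v w := by
    intro v w
    constructor
    · have h3 : ContDiff ℝ ∞ (fun t : ℝ => g (t, 0)) :=
        hg.comp (contDiff_id.prodMk contDiff_const)
      exact (h3.clm_apply contDiff_const).clm_apply contDiff_const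
    · intro t
      have := h1 (t, 0)
      rw [← this]
      simp
  have posG : ∀ t : ℝ, 0 < g (t, 0) (0, 1) (0, 1) := fun t => hp _ _ (by simp)
  have posD : ∀ t : ℝ, 0 < g (t, 0) (1, 0) (1, 0) * g (t, 0) (0, 1) (0, 1) -
      g (t, 0) (1, 0) (0, 1) ^ 2 := by
    intro t
    have hG := posG t
    have h3 := hp (t, 0) (g (t, 0) (0, 1) (0, 1), -g (t, 0) (1, 0) (0, 1)) (by
      intro h
      have := congrArg Prod.fst h
      simp only [Prod.fst_zero] at this
      exact hG.ne' this)
    rw [bil_expand _ (hs (t, 0))] at h3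
    generalize g (t, 0) (1, 0) (1, 0) = E at *
    generalize g (t, 0) (1, 0) (0, 1) = F at *
    generalize g (t, 0) (0, 1) (0, 1) = G at *
    have h4 : 0 < G * (E * G - F ^ 2) := by
      simp only at h3
      nlinarith
    exact (pos_iff_pos_of_mul_pos h4).1 hG
  obtain ⟨Φ, c1, c2, c3⟩ := exists_imm_EFG (key (1, 0) (1, 0)).1 (key (1, 0) (0, 1)).1
    (key (0, 1) (0, 1)).1 (key _ _).2 (key _ _).2 (key _ _).2 posG posD
  refine ⟨Φ, c1, c2, fun x v w => ?_⟩
  rw [c3, bil_expand (g x) (hs x) v w]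
  have h4 : g x = g (x.1, 0) := by
    rw [← h2 (x.1, 0) x.2]
    congr 1
    ext <;> simp
  rw [h4]

/-- the linear change of variables with columns `(c, d)` and `(p, q)` -/
noncomputable def lin (c d p q : ℝ) : R2 →L[ℝ] R2 :=
  (c • ContinuousLinearMap.fst ℝ ℝ ℝ + p • ContinuousLinearMap.snd ℝ ℝ ℝ).prod
    (d • ContinuousLinearMap.fst ℝ ℝ ℝ + q • ContinuousLinearMap.snd ℝ ℝ ℝ)

theorem lin_apply (c d p q : ℝ) (x : R2) :
    lin c d p q x = (c * x.1 + p * x.2, d * x.1 + q * x.2) := rfl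

theorem case_int (g : R2 → Bil) (hg : ContDiff ℝ ∞ g) (hs : ∀ x v w, g x v w = g x w v)
    (hp : ∀ x v, v ≠ 0 → 0 < g x v v) (h1 : ∀ x (m n : ℤ), g (x + ((m : ℝ), (n : ℝ))) = g x)
    (c d p q : ℤ) (hdet : c * q - d * p = 1)
    (h2 : ∀ x (t : ℝ), g (x + (t * p, t * q)) = g x) :
    ∃ Φ : R2 → EuclideanSpace ℝ (Fin 4), ContDiff ℝ ∞ Φ ∧
      (∀ x (m n : ℤ), Φ (x + ((m : ℝ), (n : ℝ))) = Φ x) ∧
      ∀ x v w, ⟪fderiv ℝ Φ x v, fderiv ℝ Φ x w⟫ = g x v w := by
  set A : R2 →L[ℝ] R2 := lin c d p q with hA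
  set A' : R2 →L[ℝ] R2 := lin q (-d) (-p) c with hA'
  have hdet' : (c : ℝ) * q - d * p = 1 := by exact_mod_cast hdet
  have hAA' : ∀ x, A (A' x) = x := by
    intro x
    rw [hA, hA', lin_apply, lin_apply]
    ext
    · show (c : ℝ) * (q * x.1 + -p * x.2) + p * (-d * x.1 + c * x.2) = x.1
      linear_combination x.1 * hdet'
    · show (d : ℝ) * (q * x.1 + -p * x.2) + q * (-d * x.1 + c * x.2) = x.2
      linear_combination x.2 * hdet'
  have hA'A : ∀ x, A' (A x) = x := by
    intro x
    rw [hA, hA', lin_apply, lin_apply]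
    ext
    · show (q : ℝ) * (c * x.1 + p * x.2) + -p * (d * x.1 + q * x.2) = x.1
      linear_combination x.1 * hdet'
    · show (-d : ℝ) * (c * x.1 + p * x.2) + c * (d * x.1 + q * x.2) = x.2
      linear_combination x.2 * hdet'
  have hAinj : ∀ v, v ≠ 0 → A v ≠ 0 := by
    intro v hv h
    apply hv
    rw [← hA'A v, h, map_zero]
  -- the pulled back metric
  let g' : R2 → Bil := fun x => (g (A x)).bilinearComp A A
  have g'_apply : ∀ x v w, g' x v w = g (A x) (A v) (A w) := fun x v w => rfl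
  have sg' : ContDiff ℝ ∞ g' := by
    have h3 : ContDiff ℝ ∞ (fun x => g (A x)) := hg.comp A.contDiff
    have h4 : g' = fun x => ((ContinuousLinearMap.compL ℝ R2 R2 ℝ).flip A).comp
        ((g (A x)).comp A) := by
      funext x
      ext <;> rfl
    rw [h4]
    exact contDiff_const.clm_comp (h3.clm_comp contDiff_const)
  obtain ⟨Φ, c1, c2, c3⟩ := case_vert g' sg' (fun x v w => by
      rw [g'_apply, g'_apply, hs]) (fun x v hv => by
      rw [g'_apply]
      exact hp _ _ (hAinj v hv)) (fun x => by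
      have h3 : A (x + (1, 0)) = A x + ((c : ℝ), (d : ℝ)) := by
        rw [map_add, hA, lin_apply _ _ _ _ (1, 0)]
        simp
      show (g (A (x + (1, 0)))).bilinearComp A A = (g (A x)).bilinearComp A A
      rw [h3, h1]) (fun x t => by
      have h3 : A (x + (0, t)) = A x + (t * (p : ℝ), t * (q : ℝ)) := by
        rw [map_add, hA, lin_apply _ _ _ _ (0, t)]
        simp [mul_comm]
      show (g (A (x + (0, t)))).bilinearComp A A = (g (A x)).bilinearComp A A
      rw [h3, h2])
  have pi1 : ∀ (m : ℤ) (x : R2), Φ (x + ((m : ℝ), 0)) = Φ x := by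
    intro m
    induction m using Int.induction_on with
    | zero =>
      intro x
      have h3 : x + (((0 : ℤ) : ℝ), (0 : ℝ)) = x := by
        ext <;> simp
      rw [h3]
    | succ i ih =>
      intro x
      have h3 : x + (((((i : ℤ) + 1 : ℤ)) : ℝ), (0 : ℝ)) = (x + (((i : ℤ) : ℝ), 0)) + (1, 0) := by
        ext <;> simp [add_assoc]
      rw [h3, (c2 _).1, ih]
    | pred i ih =>
      intro x
      have h3 : (x + (((-(i : ℤ) - 1 : ℤ) : ℝ), (0 : ℝ))) + (1, 0) = x + (((-(i : ℤ) : ℤ) : ℝ), 0) := by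
        ext <;> simp [add_assoc]
      rw [← (c2 _).1, h3, ih]
  have pi2 : ∀ (m : ℤ) (x : R2), Φ (x + (0, (m : ℝ))) = Φ x := by
    intro m
    induction m using Int.induction_on with
    | zero =>
      intro x
      have h3 : x + ((0 : ℝ), ((0 : ℤ) : ℝ)) = x := by
        ext <;> simp
      rw [h3]
    | succ i ih =>
      intro x
      have h3 : x + ((0 : ℝ), ((((i : ℤ) + 1 : ℤ)) : ℝ)) = (x + (0, ((i : ℤ) : ℝ))) + (0, 1) := by
        ext <;> simp [add_assoc]
      rw [h3, (c2 _).2, ih]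
    | pred i ih =>
      intro x
      have h3 : (x + ((0 : ℝ), ((-(i : ℤ) - 1 : ℤ) : ℝ))) + (0, 1) = x + (0, ((-(i : ℤ) : ℤ) : ℝ)) := by
        ext <;> simp [add_assoc]
      rw [← (c2 _).2, h3, ih]
  refine ⟨fun x => Φ (A' x), c1.comp A'.contDiff, ?_, ?_⟩
  · intro x m n
    show Φ (A' (x + ((m : ℝ), (n : ℝ)))) = Φ (A' x)
    have h3 : A' (x + ((m : ℝ), (n : ℝ))) =
        (A' x + (((q * m - p * n : ℤ) : ℝ), 0)) + (0, ((-d * m + c * n : ℤ) : ℝ)) := by
      rw [map_add, hA', lin_apply _ _ _ _ ((m : ℝ), (n : ℝ))]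
      ext
      · simp
        ring
      · simp
    rw [h3, pi2, pi1]
  · intro x v w
    have hd : DifferentiableAt ℝ Φ (A' x) := (c1.differentiable (by simp)) _
    have h3 : fderiv ℝ (fun x => Φ (A' x)) x = (fderiv ℝ Φ (A' x)).comp A' := by
      have := fderiv_comp x hd A'.differentiableAt
      rw [A'.fderiv] at this
      exact this
    rw [h3]
    show ⟪fderiv ℝ Φ (A' x) (A' v), fderiv ℝ Φ (A' x) (A' w)⟫ = g x v w
    rw [c3, g'_apply, hAA', hAA', hAA']

theorem exists_dir (g : R2 → Bil) (hg : Continuous g)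
    (h1 : ∀ x (m n : ℤ), g (x + ((m : ℝ), (n : ℝ))) = g x) (e : R2) (he : e ≠ 0)
    (hinv : ∀ x (t : ℝ), g (x + t • e) = g x) :
    ∃ c d p q : ℤ, c * q - d * p = 1 ∧ ∀ x (t : ℝ), g (x + (t * p, t * q)) = g x := by
  obtain ⟨e₁, e₂⟩ := e
  by_cases h0 : e₁ = 0
  · have h2 : e₂ ≠ 0 := by
      rintro rfl
      exact he (by rw [h0]; rfl)
    refine ⟨1, 0, 0, 1, by norm_num, fun x t => ?_⟩
    rw [← hinv x (t / e₂)]
    congr 2
    ext
    · simp [h0]
    · simp [h2]
  · by_cases hirr : Irrational (e₂ / e₁)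
    · refine ⟨1, 0, 0, 1, by norm_num, fun x t => ?_⟩
      let H : AddSubgroup ℝ :=
        { carrier := {y | ∀ x, g (x + (0, y)) = g x}
          add_mem' := by
            intro a b ha hb x
            have h3 : x + ((0 : ℝ), a + b) = (x + (0, a)) + (0, b) := by
              ext <;> simp [add_assoc]
            rw [h3, hb, ha]
          zero_mem' := by
            intro x
            have h3 : x + ((0 : ℝ), (0 : ℝ)) = x := by
              ext <;> simp
            rw [h3]
          neg_mem' := by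
            intro a ha x
            have h3 : (x + ((0 : ℝ), -a)) + (0, a) = x := by
              ext <;> simp
            rw [← ha, h3] }
      have hcl : IsClosed (H : Set ℝ) := by
        have h3 : (H : Set ℝ) = ⋂ x : R2, {y : ℝ | g (x + (0, y)) = g x} := by
          ext y
          simp [H]
        rw [h3]
        refine isClosed_iInter fun x => ?_
        exact isClosed_eq (hg.comp (continuous_const.add
          (Continuous.prodMk_right (0 : ℝ)))) continuous_const
      have hone : (1 : ℝ) ∈ H := by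
        intro x
        have := h1 x 0 1
        simpa using this
      have hs : e₂ / e₁ ∈ H := by
        intro x
        have h3 : (x + ((0 : ℝ), e₂ / e₁)) + (((1 : ℤ) : ℝ), ((0 : ℤ) : ℝ)) =
            x + (1 / e₁) • ((e₁, e₂) : R2) := by
          ext
          · simp [h0]
          · simp
            ring
        rw [← h1 _ 1 0, h3, hinv]
      have hd : Dense (H : Set ℝ) := by
        have h3 := (dense_addSubgroupClosure_pair_iff (a := e₂ / e₁) (b := 1)).2 (by simpa using hirr)
        refine h3.mono ?_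
        have h4 : AddSubgroup.closure {e₂ / e₁, 1} ≤ H := by
          rw [AddSubgroup.closure_le]
          intro y hy
          rcases hy with rfl | hy
          · exact hs
          · rw [Set.mem_singleton_iff] at hy
            rw [hy]
            exact hone
        exact h4
      have hall : t ∈ H := by
        have h3 : (H : Set ℝ) = Set.univ := by
          rw [← hd.closure_eq, hcl.closure_eq]
        have h4 : t ∈ (H : Set ℝ) := by
          rw [h3]
          trivial
        exact h4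
      have h5 := hall x
      simpa using h5
    · unfold Irrational at hirr
      push Not at hirr
      obtain ⟨s, hs⟩ := hirr
      have hcop : IsCoprime (s.den : ℤ) s.num := by
        rw [Int.isCoprime_iff_gcd_eq_one]
        have := s.reduced
        rw [Nat.coprime_comm] at this
        simpa [Int.gcd] using this
      obtain ⟨u, v, huv⟩ := hcop
      refine ⟨v, -u, s.den, s.num, by linarith, fun x t => ?_⟩
      rw [← hinv x (t * s.den / e₁)]
      congr 2
      have hden : (s.den : ℝ) ≠ 0 := by exact_mod_cast s.den_nz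
      have h3 : (s : ℝ) * s.den = s.num := by exact_mod_cast Rat.mul_den_eq_num s
      rw [hs] at h3
      ext
      · simp only [Prod.smul_mk, smul_eq_mul]
        push_cast
        field_simp
      · simp only [Prod.smul_mk, smul_eq_mul]
        rw [← h3]
        field_simp

theorem main (g : R2 → Bil) (hg : ContDiff ℝ ∞ g) (hs : ∀ x v w, g x v w = g x w v)
    (hp : ∀ x v, v ≠ 0 → 0 < g x v v) (h1 : ∀ x (m n : ℤ), g (x + ((m : ℝ), (n : ℝ))) = g x)
    (e : R2) (he : e ≠ 0) (hinv : ∀ x (t : ℝ), g (x + t • e) = g x) :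
    ∃ Φ : R2 → EuclideanSpace ℝ (Fin 4), ContDiff ℝ ∞ Φ ∧
      (∀ x (m n : ℤ), Φ (x + ((m : ℝ), (n : ℝ))) = Φ x) ∧
      ∀ x v w, ⟪fderiv ℝ Φ x v, fderiv ℝ Φ x w⟫ = g x v w := by
  obtain ⟨c, d, p, q, hdet, h2⟩ := exists_dir g hg.continuous h1 e he hinv
  exact case_int g hg hs hp h1 c d p q hdet h2

end Vale.Agent.P205
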