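import Mathlib

/-! # P205: the equivariant map into `ℝ⁴` -/

open scoped ContDiff RealInnerProductSpace

namespace Vale.Agent.P205

/-- the map -/
noncomputable def mapA (p q a b : ℝ → ℝ) (κ : ℝ) (x : ℝ × ℝ) : EuclideanSpace ℝ (Fin 4) :=
  !₂[p x.1 * Real.cos (κ * x.2 + a x.1), p x.1 * Real.sin (κ * x.2 + a x.1),
    q x.1 * Real.cos (κ * x.2 + b x.1), q x.1 * Real.sin (κ * x.2 + b x.1)]

theorem mapA_smooth {p q a b : ℝ → ℝ} (hp : ContDiff ℝ ∞ p) (hq : ContDiff ℝ ∞ q)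
    (ha : ContDiff ℝ ∞ a) (hb : ContDiff ℝ ∞ b) (κ : ℝ) : ContDiff ℝ ∞ (mapA p q a b κ) := by
  rw [contDiff_euclidean]
  have h1 : ContDiff ℝ ∞ (fun x : ℝ × ℝ => κ * x.2 + a x.1) :=
    (contDiff_const.mul contDiff_snd).add (ha.comp contDiff_fst)
  have h2 : ContDiff ℝ ∞ (fun x : ℝ × ℝ => κ * x.2 + b x.1) :=
    (contDiff_const.mul contDiff_snd).add (hb.comp contDiff_fst)
  have h3 : ContDiff ℝ ∞ (fun x : ℝ × ℝ => p x.1) := hp.comp contDiff_fst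
  have h4 : ContDiff ℝ ∞ (fun x : ℝ × ℝ => q x.1) := hq.comp contDiff_fst
  intro i
  fin_cases i
  · exact h3.mul (Real.contDiff_cos.comp h1)
  · exact h3.mul (Real.contDiff_sin.comp h1)
  · exact h4.mul (Real.contDiff_cos.comp h2)
  · exact h4.mul (Real.contDiff_sin.comp h2)

private theorem cosD {p a : ℝ → ℝ} (hp : Differentiable ℝ p) (ha : Differentiable ℝ a) (κ : ℝ)
    (x v : ℝ × ℝ) : ∃ D : ℝ × ℝ →L[ℝ] ℝ,
      HasFDerivAt (fun y : ℝ × ℝ => p y.1 * Real.cos (κ * y.2 + a y.1)) D x ∧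
      D v = deriv p x.1 * v.1 * Real.cos (κ * x.2 + a x.1) -
        p x.1 * Real.sin (κ * x.2 + a x.1) * (κ * v.2 + deriv a x.1 * v.1) := by
  have h1 : HasFDerivAt (fun y : ℝ × ℝ => p y.1)
      ((ContinuousLinearMap.toSpanSingleton ℝ (deriv p x.1)).comp
        (ContinuousLinearMap.fst ℝ ℝ ℝ)) x :=
    ((hp x.1).hasDerivAt.hasFDerivAt).comp x hasFDerivAt_fst
  have h2 : HasFDerivAt (fun y : ℝ × ℝ => a y.1)
      ((ContinuousLinearMap.toSpanSingleton ℝ (deriv a x.1)).comp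
        (ContinuousLinearMap.fst ℝ ℝ ℝ)) x :=
    ((ha x.1).hasDerivAt.hasFDerivAt).comp x hasFDerivAt_fst
  have h3 : HasFDerivAt (fun y : ℝ × ℝ => κ * y.2) (κ • ContinuousLinearMap.snd ℝ ℝ ℝ) x :=
    hasFDerivAt_snd.const_mul κ
  have h4 := (h3.add h2).cos
  refine ⟨_, h1.mul h4, ?_⟩
  simp
  ring

private theorem sinD {p a : ℝ → ℝ} (hp : Differentiable ℝ p) (ha : Differentiable ℝ a) (κ : ℝ)
    (x v : ℝ × ℝ) : ∃ D : ℝ × ℝ →L[ℝ] ℝ,
      HasFDerivAt (fun y : ℝ × ℝ => p y.1 * Real.sin (κ * y.2 + a y.1)) D x ∧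
      D v = deriv p x.1 * v.1 * Real.sin (κ * x.2 + a x.1) +
        p x.1 * Real.cos (κ * x.2 + a x.1) * (κ * v.2 + deriv a x.1 * v.1) := by
  have h1 : HasFDerivAt (fun y : ℝ × ℝ => p y.1)
      ((ContinuousLinearMap.toSpanSingleton ℝ (deriv p x.1)).comp
        (ContinuousLinearMap.fst ℝ ℝ ℝ)) x :=
    ((hp x.1).hasDerivAt.hasFDerivAt).comp x hasFDerivAt_fst
  have h2 : HasFDerivAt (fun y : ℝ × ℝ => a y.1)
      ((ContinuousLinearMap.toSpanSingleton ℝ (deriv a x.1)).comp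
        (ContinuousLinearMap.fst ℝ ℝ ℝ)) x :=
    ((ha x.1).hasDerivAt.hasFDerivAt).comp x hasFDerivAt_fst
  have h3 : HasFDerivAt (fun y : ℝ × ℝ => κ * y.2) (κ • ContinuousLinearMap.snd ℝ ℝ ℝ) x :=
    hasFDerivAt_snd.const_mul κ
  have h4 := (h3.add h2).sin
  refine ⟨_, h1.mul h4, ?_⟩
  simp
  ring

theorem mapA_fderiv_coord {p q a b : ℝ → ℝ} (hp : ContDiff ℝ ∞ p) (hq : ContDiff ℝ ∞ q)
    (ha : ContDiff ℝ ∞ a) (hb : ContDiff ℝ ∞ b) (κ : ℝ) (x v : ℝ × ℝ) :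
    fderiv ℝ (mapA p q a b κ) x v =
      !₂[deriv p x.1 * v.1 * Real.cos (κ * x.2 + a x.1) -
        p x.1 * Real.sin (κ * x.2 + a x.1) * (κ * v.2 + deriv a x.1 * v.1),
        deriv p x.1 * v.1 * Real.sin (κ * x.2 + a x.1) +
        p x.1 * Real.cos (κ * x.2 + a x.1) * (κ * v.2 + deriv a x.1 * v.1),
        deriv q x.1 * v.1 * Real.cos (κ * x.2 + b x.1) -
        q x.1 * Real.sin (κ * x.2 + b x.1) * (κ * v.2 + deriv b x.1 * v.1),
        deriv q x.1 * v.1 * Real.sin (κ * x.2 + b x.1) +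
        q x.1 * Real.cos (κ * x.2 + b x.1) * (κ * v.2 + deriv b x.1 * v.1)] := by
  have hd : HasFDerivAt (mapA p q a b κ) (fderiv ℝ (mapA p q a b κ) x) x :=
    (((mapA_smooth hp hq ha hb κ).differentiable (by simp)) x).hasFDerivAt
  have hc : ∀ i : Fin 4, HasFDerivAt (fun y => mapA p q a b κ y i)
      ((EuclideanSpace.proj i : EuclideanSpace ℝ (Fin 4) →L[ℝ] ℝ).comp
        (fderiv ℝ (mapA p q a b κ) x)) x := fun i =>
    ((EuclideanSpace.proj i : EuclideanSpace ℝ (Fin 4) →L[ℝ] ℝ).hasFDerivAt).comp x hd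
  have hp' := hp.differentiable (by simp : (∞ : WithTop ℕ∞) ≠ 0)
  have hq' := hq.differentiable (by simp : (∞ : WithTop ℕ∞) ≠ 0)
  have ha' := ha.differentiable (by simp : (∞ : WithTop ℕ∞) ≠ 0)
  have hb' := hb.differentiable (by simp : (∞ : WithTop ℕ∞) ≠ 0)
  obtain ⟨D0, h0, e0⟩ := cosD hp' ha' κ x v
  obtain ⟨D1, h1, e1⟩ := sinD hp' ha' κ x v
  obtain ⟨D2, h2, e2⟩ := cosD hq' hb' κ x v
  obtain ⟨D3, h3, e3⟩ := sinD hq' hb' κ x v
  ext i
  fin_cases i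
  · have := (hc 0).unique h0
    have h := DFunLike.congr_fun this v
    exact h.trans e0
  · have := (hc 1).unique h1
    have h := DFunLike.congr_fun this v
    exact h.trans e1
  · have := (hc 2).unique h2
    have h := DFunLike.congr_fun this v
    exact h.trans e2
  · have := (hc 3).unique h3
    have h := DFunLike.congr_fun this v
    exact h.trans e3

theorem mapA_inner {p q a b : ℝ → ℝ} (hp : ContDiff ℝ ∞ p) (hq : ContDiff ℝ ∞ q)
    (ha : ContDiff ℝ ∞ a) (hb : ContDiff ℝ ∞ b) (κ : ℝ) (x v w : ℝ × ℝ) :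
    ⟪fderiv ℝ (mapA p q a b κ) x v, fderiv ℝ (mapA p q a b κ) x w⟫ =
      (deriv p x.1 ^ 2 + deriv q x.1 ^ 2 + p x.1 ^ 2 * deriv a x.1 ^ 2 +
        q x.1 ^ 2 * deriv b x.1 ^ 2) * (v.1 * w.1) +
      κ * (p x.1 ^ 2 * deriv a x.1 + q x.1 ^ 2 * deriv b x.1) * (v.1 * w.2 + v.2 * w.1) +
      κ ^ 2 * (p x.1 ^ 2 + q x.1 ^ 2) * (v.2 * w.2) := by
  rw [mapA_fderiv_coord hp hq ha hb, mapA_fderiv_coord hp hq ha hb]
  rw [PiLp.inner_apply, Fin.sum_univ_four]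
  simp only [PiLp.toLp_apply, Matrix.cons_val_zero, Matrix.cons_val_one, Matrix.cons_val,
    RCLike.inner_apply, conj_trivial]
  have e1 := Real.sin_sq_add_cos_sq (κ * x.2 + a x.1)
  have e2 := Real.sin_sq_add_cos_sq (κ * x.2 + b x.1)
  generalize Real.sin (κ * x.2 + a x.1) = s1 at *
  generalize Real.cos (κ * x.2 + a x.1) = c1 at *
  generalize Real.sin (κ * x.2 + b x.1) = s2 at *
  generalize Real.cos (κ * x.2 + b x.1) = c2 at *
  generalize deriv p x.1 = p'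
  generalize deriv q x.1 = q'
  generalize deriv a x.1 = a'
  generalize deriv b x.1 = b'
  linear_combination (p' ^ 2 * v.1 * w.1 + p x.1 ^ 2 * (κ * v.2 + a' * v.1) *
    (κ * w.2 + a' * w.1)) * e1 + (q' ^ 2 * v.1 * w.1 + q x.1 ^ 2 * (κ * v.2 + b' * v.1) *
    (κ * w.2 + b' * w.1)) * e2

theorem mapA_per {p q a b : ℝ → ℝ} (hp : ∀ u, p (u + 1) = p u) (hq : ∀ u, q (u + 1) = q u)
    (m n : ℤ) (ha : ∀ u, a (u + 1) = a u + 2 * Real.pi * m)
    (hb : ∀ u, b (u + 1) = b u + 2 * Real.pi * n) (k : ℤ) (x : ℝ × ℝ) :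
    mapA p q a b (2 * Real.pi * k) (x + (1, 0)) = mapA p q a b (2 * Real.pi * k) x ∧
    mapA p q a b (2 * Real.pi * k) (x + (0, 1)) = mapA p q a b (2 * Real.pi * k) x := by
  constructor
  · unfold mapA
    simp only [Prod.fst_add, Prod.snd_add, hp, hq, ha, hb, add_zero]
    have e1 : 2 * Real.pi * k * x.2 + (a x.1 + 2 * Real.pi * m) =
        2 * Real.pi * k * x.2 + a x.1 + m * (2 * Real.pi) := by ring
    have e2 : 2 * Real.pi * k * x.2 + (b x.1 + 2 * Real.pi * n) =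
        2 * Real.pi * k * x.2 + b x.1 + n * (2 * Real.pi) := by ring
    rw [e1, e2, Real.cos_add_int_mul_two_pi, Real.sin_add_int_mul_two_pi,
      Real.cos_add_int_mul_two_pi, Real.sin_add_int_mul_two_pi]
  · unfold mapA
    simp only [Prod.fst_add, Prod.snd_add, add_zero]
    have e1 : ∀ y : ℝ, 2 * Real.pi * k * (x.2 + 1) + y =
        2 * Real.pi * k * x.2 + y + k * (2 * Real.pi) := fun y => by ring
    rw [e1, e1, Real.cos_add_int_mul_two_pi, Real.sin_add_int_mul_two_pi,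
      Real.cos_add_int_mul_two_pi, Real.sin_add_int_mul_two_pi]

end Vale.Agent.P205
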